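import Vale.Agent.P072.Main

namespace Vale.Agent.Results.P072.A_Permanence

open Vale.Agent.P072

/-- The permanence conjecture, for constant rates and for measurable time-dependent rates with
values in `[ε, ε⁻¹]`. -/
theorem result (d : ℕ) (R : Finset ((Fin d → ℕ) × (Fin d → ℕ))) (hR : WeaklyReversible R)
    (c : Fin d → ℝ) (hc : ∀ i, 0 < c i) :
    (∀ k : (Fin d → ℕ) × (Fin d → ℕ) → ℝ, (∀ r ∈ R, 0 < k r) →
      ∃ K : Set (Fin d → ℝ), IsCompact K ∧ K ⊆ posClass R c ∧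
        PermanentWith (IsSolution (massAction R k)) (posClass R c) K) ∧
    (∀ ε : ℝ, 0 < ε →
      ∃ K : Set (Fin d → ℝ), IsCompact K ∧ K ⊆ posClass R c ∧
        ∀ κ : ℝ → (Fin d → ℕ) × (Fin d → ℕ) → ℝ, (∀ r ∈ R, Measurable (fun t => κ t r)) →
          (∀ t, 0 ≤ t → ∀ r ∈ R, ε ≤ κ t r ∧ κ t r ≤ ε⁻¹) →
          PermanentWith (IsIntegralSolution (fun t => massAction R (κ t))) (posClass R c) K) :=
  ⟨fun _ hk => permanent_const hR hc hk, fun _ hε => permanent_variable hR hc hε⟩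

end Vale.Agent.Results.P072.A_Permanence
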