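import Vale.Agent.P072.Main

namespace Vale.Agent.Results.P072.B_Constant

open Vale.Agent.P072

/-- The permanence conjecture (Q1), constant positive rates. -/
theorem result (d : ℕ) (R : Finset ((Fin d → ℕ) × (Fin d → ℕ))) (hR : WeaklyReversible R)
    (k : (Fin d → ℕ) × (Fin d → ℕ) → ℝ) (hk : ∀ r ∈ R, 0 < k r)
    (c : Fin d → ℝ) (hc : ∀ i, 0 < c i) :
    ∃ K : Set (Fin d → ℝ), IsCompact K ∧ K ⊆ posClass R c ∧
      PermanentWith (IsSolution (massAction R k)) (posClass R c) K :=
  permanent_const hR hc hk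

end Vale.Agent.Results.P072.B_Constant
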